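import Mathlib

namespace Vale.Agent.Results.P038.DenseCase

open Finset

variable {V : Type} [Fintype V] [DecidableEq V]

/-- First out-neighbourhood of v in the digraph with arc relation r. -/
def outN (r : V → V → Prop) [DecidableRel r] (v : V) : Finset V :=
  univ.filter (fun u => r v u)

/-- Second out-neighbourhood: vertices at directed distance exactly two from v. -/
def outN2 (r : V → V → Prop) [DecidableRel r] (v : V) : Finset V :=
  univ.filter (fun w => w ≠ v ∧ ¬ r v w ∧ ∃ u, r v u ∧ r u w)

def inN (r : V → V → Prop) [DecidableRel r] (w : V) : Finset V :=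
  univ.filter (fun y => r y w)

def far (r : V → V → Prop) [DecidableRel r] (x : V) : Finset V :=
  univ.filter (fun w => w ≠ x ∧ ¬ r x w ∧ ¬ ∃ u, r x u ∧ r u w)

def farTo (r : V → V → Prop) [DecidableRel r] (w : V) : Finset V :=
  univ.filter (fun x => w ∈ far r x)

lemma arcs_bound (r : V → V → Prop) [DecidableRel r]
    (horient : ∀ u v, r u v → ¬ r v u) (X : Finset V) :
    2 * ∑ x ∈ X, (outN r x ∩ X).card + X.card ≤ X.card * X.card := by
  classical
  have h1 : ∀ x, (outN r x ∩ X).card = ∑ y ∈ X, (if r x y then 1 else 0) := by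
    intro x
    rw [← Finset.card_filter]
    congr 1
    ext y
    simp [outN, and_comm]
  have h2 : ∑ x ∈ X, ∑ y ∈ X, (if r x y then 1 else 0)
      = ∑ x ∈ X, ∑ y ∈ X, (if r y x then 1 else 0) := Finset.sum_comm
  have h3 : ∀ x ∈ X, ∑ y ∈ X, (if y = x then 1 else 0) = 1 := by
    intro x hx
    rw [Finset.sum_ite_eq' X x (fun _ => 1)]
    simp [hx]
  have h4 : ∑ x ∈ X, ∑ y ∈ X, ((if r x y then 1 else 0) + (if r y x then 1 else 0)
      + (if y = x then 1 else 0)) ≤ ∑ x ∈ X, ∑ _y ∈ X, 1 := by
    refine Finset.sum_le_sum (fun x _ => Finset.sum_le_sum (fun y _ => ?_))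
    by_cases hxy : r x y
    · have h5 : ¬ r y x := horient _ _ hxy
      have h6 : y ≠ x := by
        rintro rfl
        exact h5 hxy
      simp [hxy, h5, h6]
    · by_cases hyx : r y x
      · have h6 : y ≠ x := by
          rintro rfl
          exact hxy hyx
        simp [hxy, hyx, h6]
      · by_cases h6 : y = x
        · subst h6
          simp [hxy]
        · simp [hxy, hyx, h6]
  simp only [Finset.sum_add_distrib] at h4
  rw [← h2, Finset.sum_congr rfl h3] at h4
  simp only [Finset.sum_const, smul_eq_mul, mul_one] at h4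
  simp only [h1]
  omega

omit [DecidableEq V] in
lemma sum_out_eq_sum_in (r : V → V → Prop) [DecidableRel r] :
    ∑ x, (outN r x).card = ∑ w, (inN r w).card := by
  classical
  simp only [outN, inN, Finset.card_filter]
  exact Finset.sum_comm

lemma sum_far_eq (r : V → V → Prop) [DecidableRel r] :
    ∑ x, (far r x).card = ∑ w, (farTo r w).card := by
  classical
  have h1 : ∀ x, (far r x).card = ∑ w, (if w ∈ far r x then 1 else 0) := by
    intro x
    rw [← Finset.card_filter]
    congr 1
    ext w
    simp
  simp only [h1, farTo, Finset.card_filter]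
  exact Finset.sum_comm

lemma partition_card (r : V → V → Prop) [DecidableRel r]
    (horient : ∀ u v, r u v → ¬ r v u) (x : V) :
    Fintype.card V = 1 + (outN r x).card + (outN2 r x).card + (far r x).card := by
  classical
  have hirr : ¬ r x x := fun h => horient _ _ h h
  have hU : (univ : Finset V) = insert x (outN r x ∪ (outN2 r x ∪ far r x)) := by
    ext w
    simp only [mem_univ, mem_insert, mem_union, outN, outN2, far, mem_filter, true_and, true_iff]
    by_cases h1 : w = x
    · exact Or.inl h1
    · by_cases h2 : r x w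
      · exact Or.inr (Or.inl h2)
      · by_cases h3 : ∃ u, r x u ∧ r u w
        · exact Or.inr (Or.inr (Or.inl ⟨h1, h2, h3⟩))
        · exact Or.inr (Or.inr (Or.inr ⟨h1, h2, h3⟩))
  have hd1 : Disjoint (outN2 r x) (far r x) := by
    rw [Finset.disjoint_left]
    intro w hw hw'
    simp only [outN2, far, mem_filter, mem_univ, true_and] at hw hw'
    exact hw'.2.2 hw.2.2
  have hd2 : Disjoint (outN r x) (outN2 r x ∪ far r x) := by
    rw [Finset.disjoint_left]
    intro w hw hw'
    simp only [outN, outN2, far, mem_filter, mem_univ, true_and, mem_union] at hw hw'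
    rcases hw' with h | h
    · exact h.2.1 hw
    · exact h.2.1 hw
  have hx : x ∉ outN r x ∪ (outN2 r x ∪ far r x) := by
    simp only [outN, outN2, far, mem_filter, mem_univ, true_and, mem_union]
    tauto
  rw [← Finset.card_univ, hU, Finset.card_insert_of_notMem hx,
    Finset.card_union_of_disjoint hd2, Finset.card_union_of_disjoint hd1]
  omega

lemma in_out_card (r : V → V → Prop) [DecidableRel r]
    (horient : ∀ u v, r u v → ¬ r v u) (w : V) :
    (inN r w).card + (outN r w).card + 1 ≤ Fintype.card V := by
  classical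
  have hirr : ¬ r w w := fun h => horient _ _ h h
  have hd : Disjoint (inN r w) (outN r w) := by
    rw [Finset.disjoint_left]
    intro y hy hy'
    simp only [inN, outN, mem_filter, mem_univ, true_and] at hy hy'
    exact horient _ _ hy hy'
  have hw : w ∉ inN r w ∪ outN r w := by
    simp [inN, outN, hirr]
  have := Finset.card_le_univ (insert w (inN r w ∪ outN r w))
  rw [Finset.card_insert_of_notMem hw, Finset.card_union_of_disjoint hd] at this
  omega

lemma farTo_bound (r : V → V → Prop) [DecidableRel r]
    (horient : ∀ u v, r u v → ¬ r v u)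
    (hdense : ∀ v, Fintype.card V ≤ 2 * (outN r v).card + 2) (w : V)
    (hne : (farTo r w).Nonempty) :
    (farTo r w).card + 2 * (inN r w).card + 1 ≤ Fintype.card V := by
  classical
  set X := farTo r w with hX
  set J : Finset V := univ.filter (fun y => y ≠ w ∧ ¬ r y w) with hJ
  have hirr : ¬ r w w := fun h => horient _ _ h h
  have hJcard : J.card + (inN r w).card + 1 = Fintype.card V := by
    have hU : (univ : Finset V) = insert w (J ∪ inN r w) := by
      ext y
      simp only [mem_univ, mem_insert, mem_union, hJ, inN, mem_filter, true_and, true_iff]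
      tauto
    have hd : Disjoint J (inN r w) := by
      rw [Finset.disjoint_left]
      intro y hy hy'
      simp only [hJ, inN, mem_filter, mem_univ, true_and] at hy hy'
      exact hy.2 hy'
    have hw : w ∉ J ∪ inN r w := by
      simp [hJ, inN, hirr]
    rw [← Finset.card_univ, hU, Finset.card_insert_of_notMem hw,
      Finset.card_union_of_disjoint hd]
  have hXJ : X ⊆ J := by
    intro x hx
    simp only [hX, farTo, far, hJ, mem_filter, mem_univ, true_and] at hx ⊢
    exact ⟨fun h => hx.1 h.symm, hx.2.1⟩
  have hout : ∀ x ∈ X, outN r x ⊆ J := by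
    intro x hx u hu
    simp only [hX, farTo, far, hJ, outN, mem_filter, mem_univ, true_and] at hx hu ⊢
    refine ⟨?_, fun h => hx.2.2 ⟨u, hu, h⟩⟩
    rintro rfl
    exact hx.2.1 hu
  have h1 : ∀ x ∈ X, (outN r x).card ≤ (outN r x ∩ X).card + (J.card - X.card) := by
    intro x hx
    have h2 := Finset.card_sdiff_add_card_inter (outN r x) X
    have h3 : (outN r x \ X).card ≤ (J \ X).card :=
      Finset.card_le_card (Finset.sdiff_subset_sdiff (hout x hx) (le_refl _))
    have h4 : (J \ X).card = J.card - X.card := Finset.card_sdiff_of_subset hXJ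
    omega
  have h5 : ∑ x ∈ X, (outN r x).card
      ≤ ∑ x ∈ X, (outN r x ∩ X).card + X.card * (J.card - X.card) := by
    calc ∑ x ∈ X, (outN r x).card
        ≤ ∑ x ∈ X, ((outN r x ∩ X).card + (J.card - X.card)) := Finset.sum_le_sum h1
      _ = ∑ x ∈ X, (outN r x ∩ X).card + X.card * (J.card - X.card) := by
          rw [Finset.sum_add_distrib, Finset.sum_const, smul_eq_mul]
  have h6 : X.card * Fintype.card V ≤ 2 * ∑ x ∈ X, (outN r x).card + 2 * X.card := by
    calc X.card * Fintype.card V = ∑ _x ∈ X, Fintype.card V := by
          rw [Finset.sum_const, smul_eq_mul]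
      _ ≤ ∑ x ∈ X, (2 * (outN r x).card + 2) := Finset.sum_le_sum (fun x _ => hdense x)
      _ = 2 * ∑ x ∈ X, (outN r x).card + 2 * X.card := by
          rw [Finset.sum_add_distrib, Finset.sum_const, smul_eq_mul, Finset.mul_sum, mul_comm]
  have h7 := arcs_bound r horient X
  have hk : 0 < X.card := Finset.card_pos.mpr hne
  have hkJ : X.card ≤ J.card := Finset.card_le_card hXJ
  obtain ⟨m, hm⟩ : ∃ m, J.card = X.card + m := ⟨J.card - X.card, by omega⟩
  have hm' : J.card - X.card = m := by omega
  rw [hm'] at h5
  generalize hα : ∑ x ∈ X, (outN r x ∩ X).card = α at h5 h7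
  generalize hβ : ∑ x ∈ X, (outN r x).card = β at h5 h6
  generalize X.card = k at *
  generalize Fintype.card V = n at *
  generalize (inN r w).card = i at *
  generalize J.card = j at *
  subst hm
  by_contra hcon
  push Not at hcon
  have h8 : k * n ≤ k * k - k + 2 * (k * m) + 2 * k := by
    have : 2 * α ≤ k * k - k := by omega
    omega
  have h9 : k * n + k ≤ k * k + 2 * (k * m) + 2 * k := by
    have : k ≤ k * k := Nat.le_mul_self k
    omega
  have h10 : k * (n + 1) ≤ k * (k + 2 * m + 2) := by nlinarith
  have h11 : n + 1 ≤ k + 2 * m + 2 := Nat.le_of_mul_le_mul_left h10 hk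
  omega

theorem result (V : Type) [Fintype V] [DecidableEq V] [Nonempty V]
    (r : V → V → Prop) [DecidableRel r]
    (horient : ∀ u v, r u v → ¬ r v u)
    (hdense : ∀ v, Fintype.card V ≤ 2 * (outN r v).card + 2) :
    ∃ v, (outN r v).card ≤ (outN2 r v).card := by
  classical
  by_contra hcon
  push Not at hcon
  have hn : 0 < Fintype.card V := Fintype.card_pos
  have ha : ∀ x, Fintype.card V ≤ (far r x).card + 2 * (outN r x).card := by
    intro x
    have h1 := partition_card r horient x
    have h2 := hcon x
    omega
  have hb : ∀ w, (farTo r w).card + 2 * (inN r w).card ≤ Fintype.card V := by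
    intro w
    by_cases hne : (farTo r w).Nonempty
    · have := farTo_bound r horient hdense w hne
      omega
    · rw [Finset.not_nonempty_iff_eq_empty] at hne
      have h1 := in_out_card r horient w
      have h2 := hdense w
      rw [hne, Finset.card_empty]
      omega
  have hw0 : ∃ w, 2 * (inN r w).card + 1 ≤ Fintype.card V := by
    by_contra hno
    push Not at hno
    have h1 : ∑ _w : V, Fintype.card V ≤ ∑ w, 2 * (inN r w).card :=
      Finset.sum_le_sum (fun w _ => by have := hno w; omega)
    rw [Finset.sum_const, smul_eq_mul, Finset.card_univ, ← Finset.mul_sum,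
      ← sum_out_eq_sum_in] at h1
    have h2 := arcs_bound r horient (univ : Finset V)
    simp only [Finset.inter_univ, Finset.card_univ] at h2
    omega
  obtain ⟨w0, hw0⟩ := hw0
  have hb0 : (farTo r w0).card + 2 * (inN r w0).card < Fintype.card V := by
    by_cases hne : (farTo r w0).Nonempty
    · have := farTo_bound r horient hdense w0 hne
      omega
    · rw [Finset.not_nonempty_iff_eq_empty] at hne
      rw [hne, Finset.card_empty]
      omega
  have hs1 : ∑ w, ((farTo r w).card + 2 * (inN r w).card) < ∑ _w : V, Fintype.card V :=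
    Finset.sum_lt_sum (fun w _ => hb w) ⟨w0, mem_univ _, hb0⟩
  have hs2 : ∑ _x : V, Fintype.card V ≤ ∑ x, ((far r x).card + 2 * (outN r x).card) :=
    Finset.sum_le_sum (fun x _ => ha x)
  rw [Finset.sum_add_distrib, ← Finset.mul_sum] at hs1 hs2
  rw [sum_far_eq, sum_out_eq_sum_in] at hs2
  omega

end Vale.Agent.Results.P038.DenseCase
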