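import Mathlib

namespace Vale.Agent.Results.P038.LocallySparse

open Finset

variable {V : Type} [Fintype V] [DecidableEq V]

/-- First out-neighbourhood of v in the digraph with arc relation r. -/
def outN (r : V → V → Prop) [DecidableRel r] (v : V) : Finset V :=
  univ.filter (fun u => r v u)

/-- Second out-neighbourhood: vertices at directed distance exactly two from v. -/
def outN2 (r : V → V → Prop) [DecidableRel r] (v : V) : Finset V :=
  univ.filter (fun w => w ≠ v ∧ ¬ r v w ∧ ∃ u, r v u ∧ r u w)

theorem result (V : Type) [Fintype V] [DecidableEq V] [Nonempty V]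
    (r : V → V → Prop) [DecidableRel r]
    (horient : ∀ u v, r u v → ¬ r v u) (t : ℕ)
    (hsparse : ∀ v u, r v u → (outN r v ∩ outN r u).card ≤ t)
    (hdeg : ∀ v, 3 * t ≤ (outN r v).card) :
    ∃ v, (outN r v).card ≤ (outN2 r v).card := by
  classical
  obtain ⟨v, -, hv⟩ := Finset.exists_min_image (univ : Finset V) (fun x => (outN r x).card)
    ⟨Classical.arbitrary V, mem_univ _⟩
  refine ⟨v, ?_⟩
  have hmin : ∀ x, (outN r v).card ≤ (outN r x).card := fun x => hv x (mem_univ _)
  have hsub : ∀ u, r v u → outN r u \ outN r v ⊆ outN2 r v := by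
    intro u hu w hw
    simp only [outN, outN2, mem_sdiff, mem_filter, mem_univ, true_and] at hw ⊢
    refine ⟨?_, hw.2, u, hu, hw.1⟩
    rintro rfl
    exact horient _ _ hu hw.1
  have hcard : ∀ u, r v u → (outN r u).card ≤ (outN r u \ outN r v).card + t := by
    intro u hu
    have h1 := Finset.card_sdiff_add_card_inter (outN r u) (outN r v)
    have h2 := hsparse v u hu
    rw [Finset.inter_comm] at h2
    omega
  by_cases hA : ∃ u u', r v u ∧ r v u' ∧ r u u'
  · obtain ⟨u, u', hu, hu', huu'⟩ := hA
    have h1 := hcard u hu
    have h2 := hcard u' hu'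
    have h3 : ((outN r u \ outN r v) ∩ (outN r u' \ outN r v)).card ≤ t := by
      refine le_trans (Finset.card_le_card ?_) (hsparse u u' huu')
      intro w hw
      simp only [mem_inter, mem_sdiff] at hw ⊢
      exact ⟨hw.1.1, hw.2.1⟩
    have h4 : ((outN r u \ outN r v) ∪ (outN r u' \ outN r v)).card ≤ (outN2 r v).card :=
      Finset.card_le_card (Finset.union_subset (hsub u hu) (hsub u' hu'))
    have h5 := Finset.card_union_add_card_inter (outN r u \ outN r v) (outN r u' \ outN r v)
    have h6 := hmin u
    have h7 := hmin u'
    have h8 := hdeg v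
    omega
  · push Not at hA
    by_cases hne : (outN r v).Nonempty
    · obtain ⟨u, hu⟩ := hne
      have hu' : r v u := by simpa [outN] using hu
      have hdisj : outN r u \ outN r v = outN r u := by
        rw [Finset.sdiff_eq_self_iff_disjoint, Finset.disjoint_left]
        intro w hw hw'
        simp only [outN, mem_filter, mem_univ, true_and] at hw hw'
        exact hA u w hu' hw' hw
      have := Finset.card_le_card (hsub u hu')
      rw [hdisj] at this
      exact le_trans (hmin u) this
    · rw [Finset.not_nonempty_iff_eq_empty] at hne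
      simp [hne]

end Vale.Agent.Results.P038.LocallySparse
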