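import Mathlib
import Vale.Agent.Results.P038.DenseCase
import Vale.Agent.Results.P038.LocallySparse

namespace Vale.Agent.Results.P038.A0_DenseOrSparse

open Finset

variable {V : Type} [Fintype V] [DecidableEq V]

/-- First out-neighbourhood of v in the digraph with arc relation r. -/
def outN (r : V → V → Prop) [DecidableRel r] (v : V) : Finset V :=
  univ.filter (fun u => r v u)

/-- Second out-neighbourhood: vertices at directed distance exactly two from v. -/
def outN2 (r : V → V → Prop) [DecidableRel r] (v : V) : Finset V :=
  univ.filter (fun w => w ≠ v ∧ ¬ r v w ∧ ∃ u, r v u ∧ r u w)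

/-- Seymour's second neighbourhood conjecture in two opposite regimes: very dense oriented
graphs, and oriented graphs in which every arc lies in few transitive triangles. -/
theorem result (V : Type) [Fintype V] [DecidableEq V] [Nonempty V]
    (r : V → V → Prop) [DecidableRel r]
    (horient : ∀ u v, r u v → ¬ r v u)
    (h : (∀ v, Fintype.card V ≤ 2 * (outN r v).card + 2) ∨
      (∃ t : ℕ, (∀ v u, r v u → (outN r v ∩ outN r u).card ≤ t) ∧
        ∀ v, 3 * t ≤ (outN r v).card)) :
    ∃ v, (outN r v).card ≤ (outN2 r v).card := by
  rcases h with h | ⟨t, h1, h2⟩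
  · exact Vale.Agent.Results.P038.DenseCase.result V r horient h
  · exact Vale.Agent.Results.P038.LocallySparse.result V r horient t h1 h2

end Vale.Agent.Results.P038.A0_DenseOrSparse
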